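import Vale.Agent.Results.P080.OneSided

namespace Vale.Agent.Results.P080.Holder

open Metric Vale.Agent.P080

theorem result : ∃ C : ℝ, ∀ (d : ℕ) (Ω : Set (E d)) (u : E d → ℝ) (c : E d) (R M K γ : ℝ),
    InfHarm Ω u → 0 < R → ball c (2 * R) ⊆ Ω → 0 ≤ K → 0 < γ → γ ≤ 1 →
    (OneSided (ball c (2 * R)) (fun t => K * t ^ γ) u ∨
      OneSided (ball c (2 * R)) (fun t => K * t ^ γ) fun x => -u x) →
    (∀ x ∈ ball c (2 * R), ∀ y ∈ ball c (2 * R), u y - u x ≤ M) →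
    (∀ x ∈ ball c R, DifferentiableAt ℝ u x) ∧
      ∀ x ∈ ball c R, ∀ y ∈ ball c R, ‖x - y‖ ≤ R →
        ‖gradient u x - gradient u y‖ ^ 3 ≤
          C * (M / R + K * R ^ γ) ^ 3 * (‖x - y‖ / R) ^ (γ / (1 + γ)) := by
  obtain ⟨C, hC⟩ := Vale.Agent.Results.P080.OneSided.result
  refine ⟨3 * |C|, fun d Ω u c R M K γ hu hR hΩ hK hγ hγ1 hsc hM => ?_⟩
  obtain ⟨h1, -, h3⟩ := hC d Ω u c R M (fun t => K * t ^ γ) hu hR hΩ
    (fun a ha b _ hab => mul_le_mul_of_nonneg_left (Real.rpow_le_rpow ha hab hγ.le) hK)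
    (by simp [hγ.ne']) (continuousAt_const.mul
      (Real.continuousAt_rpow_const 0 γ (Or.inr hγ.le))).continuousWithinAt hsc hM
  refine ⟨h1, fun x hx y hy hxy => ?_⟩
  have hM0 : 0 ≤ M := by
    simpa using hM c (mem_ball_self (by linarith)) c (mem_ball_self (by linarith))
  have hRγ : 0 < R ^ γ := Real.rpow_pos_of_pos hR γ
  rcases eq_or_lt_of_le (norm_nonneg (x - y)) with h0 | h0
  · rw [sub_eq_zero.1 (norm_eq_zero.1 h0.symm)]
    simp only [sub_self, norm_zero]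
    rw [zero_pow (by norm_num)]
    positivity
  obtain ⟨σ, hσ⟩ : ∃ σ, σ = ‖x - y‖ / R := ⟨_, rfl⟩
  have s0 : 0 < σ := by rw [hσ]; positivity
  have s1 : σ ≤ 1 := by rw [hσ, div_le_one hR]; exact hxy
  have hs : ‖x - y‖ = σ * R := by rw [hσ]; field_simp
  obtain ⟨a, ha⟩ : ∃ a, a = σ ^ (1 / (1 + γ)) := ⟨_, rfl⟩
  obtain ⟨b, hb⟩ : ∃ b, b = σ ^ (γ / (1 + γ)) := ⟨_, rfl⟩
  have a0 : 0 < a := by rw [ha]; positivity
  have b0 : 0 < b := by rw [hb]; positivity
  have a1 : a ≤ 1 := by rw [ha]; exact Real.rpow_le_one s0.le s1 (by positivity)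
  have b1 : b ≤ 1 := by rw [hb]; exact Real.rpow_le_one s0.le s1 (by positivity)
  have hab : σ = a * b := by
    rw [ha, hb, ← Real.rpow_add s0, ← add_div, div_self (by positivity), Real.rpow_one]
  have haγ : a ^ γ = b := by
    rw [ha, hb, ← Real.rpow_mul s0.le]
    congr 1
    ring
  have h4 := h3 x hx y hy (a * R) (by positivity) (mul_le_of_le_one_left hR.le a1) (by
    rw [hs, hab]
    exact mul_le_mul_of_nonneg_right (mul_le_of_le_one_right a0.le b1) hR.le)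
  have h5 : ‖x - y‖ / (a * R) = b := by rw [hs, hab]; field_simp
  have h6 : (2 * (a * R)) ^ γ ≤ 2 * (b * R ^ γ) := by
    rw [Real.mul_rpow (by norm_num) (by positivity), Real.mul_rpow a0.le hR.le, haγ]
    refine mul_le_mul_of_nonneg_right ?_ (by positivity)
    simpa using Real.rpow_le_rpow_of_exponent_le (by norm_num : (1 : ℝ) ≤ 2) hγ1
  rw [← hσ, ← hb]
  simp only [h5] at h4
  have hMR : 0 ≤ M / R := by positivity
  have hKR : 0 ≤ K * R ^ γ := by positivity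
  have hw : 0 ≤ K * (2 * (a * R)) ^ γ := by positivity
  have h7 : K * (2 * (a * R)) ^ γ ≤ 2 * ((M / R + K * R ^ γ) * b) := by
    nlinarith [mul_le_mul_of_nonneg_left h6 hK, mul_nonneg hMR b0.le]
  generalize K * (2 * (a * R)) ^ γ = w at h4 hw h7
  have hN : 0 ≤ M / R + K * R ^ γ := by positivity
  generalize M / R + K * R ^ γ = N at h4 h7 hN ⊢
  calc _ ≤ C * N ^ 2 * (N * b + w) := h4
    _ ≤ |C| * N ^ 2 * (N * b + w) := by gcongr; exact le_abs_self C
    _ ≤ |C| * N ^ 2 * (N * b + 2 * (N * b)) := by gcongr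
    _ = _ := by ring

end Vale.Agent.Results.P080.Holder
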