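import Vale.Agent.P080.Main2

namespace Vale.Agent.Results.P080.OneSided

open Metric Vale.Agent.P080

theorem result : ∃ C : ℝ, ∀ (d : ℕ) (Ω : Set (E d)) (u : E d → ℝ) (c : E d) (R M : ℝ) (ω : ℝ → ℝ),
    InfHarm Ω u → 0 < R → ball c (2 * R) ⊆ Ω →
    MonotoneOn ω (Set.Ici 0) → ω 0 = 0 → ContinuousWithinAt ω (Set.Ici 0) 0 →
    (OneSided (ball c (2 * R)) ω u ∨ OneSided (ball c (2 * R)) ω fun x => -u x) →
    (∀ x ∈ ball c (2 * R), ∀ y ∈ ball c (2 * R), u y - u x ≤ M) →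
    (∀ x ∈ ball c R, DifferentiableAt ℝ u x) ∧ ContinuousOn (gradient u) (ball c R) ∧
      ∀ x ∈ ball c R, ∀ y ∈ ball c R, ∀ ρ : ℝ, 0 < ρ → ρ ≤ R → ‖x - y‖ ≤ ρ →
        ‖gradient u x - gradient u y‖ ^ 3 ≤
          C * (M / R + ω R) ^ 2 * ((M / R + ω R) * (‖x - y‖ / ρ) + ω (2 * ρ)) := by
  refine ⟨10 ^ 6, fun d Ω u c R M ω hu hR hΩ hω hω0 hω1 hsc hM => ?_⟩
  rcases hsc with hsc | hsc
  · obtain ⟨p, hp, hcp, hH⟩ := main2 hu.1 hu.2.2 hω hω0 hω1 hR hΩ hsc hM
    refine ⟨fun x hx => (hp x hx).differentiableAt, hcp.congr fun x hx => (hp x hx).gradient,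
      fun x hx y hy ρ h1 h2 h3 => ?_⟩
    rw [(hp x hx).gradient, (hp y hy).gradient]
    exact hH x hx y hy ρ h1 h2 h3
  · obtain ⟨p, hp, hcp, hH⟩ := main2 (u := fun x => -u x) (M := M) hu.1.neg (by
      intro φ hφ z hz hmin
      have h := hu.2.1 (fun x => -φ x) hφ.neg z hz (by
        have he : (fun x => u x - -φ x) = fun x => -(-u x - φ x) := by
          funext x
          ring
        rw [he]
        exact hmin.neg)
      rw [infLap_neg] at h
      linarith) hω hω0 hω1 hR hΩ hsc (fun x hx y hy => by linarith [hM y hy x hx])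
    have hq : ∀ x ∈ ball c R, HasGradientAt u (-p x) x := fun x hx => by
      have h := hasGradientAt_iff_hasFDerivAt.1 (hp x hx)
      rw [hasGradientAt_iff_hasFDerivAt, map_neg]
      simpa using h.fun_neg
    refine ⟨fun x hx => (hq x hx).differentiableAt,
      hcp.neg.congr fun x hx => (hq x hx).gradient, fun x hx y hy ρ h1 h2 h3 => ?_⟩
    rw [(hq x hx).gradient, (hq y hy).gradient, neg_sub_neg, norm_sub_rev]
    exact hH x hx y hy ρ h1 h2 h3

end Vale.Agent.Results.P080.OneSided
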