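import Vale.Agent.P080.Main

namespace Vale.Agent.Results.P080.SemiConvex

open Metric Vale.Agent.P080

theorem result : ∃ C : ℝ, ∀ (d : ℕ) (Ω : Set (E d)) (u : E d → ℝ) (c : E d) (R K M : ℝ),
    InfHarm Ω u → 0 < R → 0 ≤ K → ball c (2 * R) ⊆ Ω →
    (SemiConvex (ball c (2 * R)) K u ∨ SemiConvex (ball c (2 * R)) K fun x => -u x) →
    (∀ x ∈ ball c (2 * R), ∀ y ∈ ball c (2 * R), u y - u x ≤ M) →
    (∀ x ∈ ball c R, DifferentiableAt ℝ u x) ∧ ∀ x ∈ ball c R, ∀ y ∈ ball c R,
      ‖gradient u x - gradient u y‖ ^ 5 ≤ C * (M / R + K * R) ^ 5 * (‖x - y‖ / R) := by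
  refine ⟨10 ^ 12, fun d Ω u c R K M hu hR hK hΩ hsc hM => ?_⟩
  rcases hsc with hsc | hsc
  · obtain ⟨p, hp, hH⟩ := main hu.1 hu.2.2 hR hK hΩ hsc hM
    refine ⟨fun x hx => (hp x hx).differentiableAt, fun x hx y hy => ?_⟩
    rw [(hp x hx).gradient, (hp y hy).gradient, ← mul_div_assoc, le_div_iff₀ hR]
    exact hH x hx y hy
  · obtain ⟨p, hp, hH⟩ := main (u := fun x => -u x) (M := M) hu.1.neg (by
      intro φ hφ z hz hmin
      have h := hu.2.1 (fun x => -φ x) hφ.neg z hz (by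
        have he : (fun x => u x - -φ x) = fun x => -(-u x - φ x) := by
          funext x
          ring
        rw [he]
        exact hmin.neg)
      rw [infLap_neg] at h
      linarith) hR hK hΩ hsc (fun x hx y hy => by linarith [hM y hy x hx])
    have hq : ∀ x ∈ ball c R, HasGradientAt u (-p x) x := fun x hx => by
      have h := hasGradientAt_iff_hasFDerivAt.1 (hp x hx)
      rw [hasGradientAt_iff_hasFDerivAt, map_neg]
      simpa using h.fun_neg
    refine ⟨fun x hx => (hq x hx).differentiableAt, fun x hx y hy => ?_⟩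
    rw [(hq x hx).gradient, (hq y hy).gradient, ← mul_div_assoc, le_div_iff₀ hR, neg_sub_neg,
      norm_sub_rev]
    exact hH x hx y hy

end Vale.Agent.Results.P080.SemiConvex
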